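import Vale.Agent.P186.Defs

namespace Vale.Agent.P186

open SimpleGraph

universe u

section Graph

variable {V : Type u} {Γ : SimpleGraph V}

lemma dist_add_of_mem_support (hc : Γ.Connected) {x y v : V} (p : Γ.Walk x y)
    (hp : p.length = Γ.dist x y) (hv : v ∈ p.support) :
    Γ.dist x v + Γ.dist v y = Γ.dist x y := by
  obtain ⟨q, r, rfl⟩ := (Walk.mem_support_iff_exists_append).1 hv
  have h1 := Γ.dist_le q
  have h2 := Γ.dist_le r
  have h3 := hc.dist_triangle (u := x) (v := v) (w := y)
  rw [Walk.length_append] at hp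
  omega

lemma exists_between (hc : Γ.Connected) (x y : V) (k : ℕ) (hk : k ≤ Γ.dist x y) :
    ∃ m, Γ.dist x m = k ∧ Γ.dist m y = Γ.dist x y - k := by
  obtain ⟨p, hp⟩ := hc.exists_walk_length_eq_dist x y
  have hm : p.getVert k ∈ p.support := p.getVert_mem_support k
  have h0 := dist_add_of_mem_support hc p hp hm
  have h1 : Γ.dist x (p.getVert k) ≤ k := by
    have := Γ.dist_le (p.take k)
    have h2 : (p.take k).length = k := by
      simp [Walk.take_length]; omega
    omega
  have h3 : Γ.dist (p.getVert k) y ≤ Γ.dist x y - k := by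
    have := Γ.dist_le (p.drop k)
    have h2 : (p.drop k).length = p.length - k := by
      simp [Walk.drop_length]
    omega
  exact ⟨p.getVert k, by omega, by omega⟩

lemma exists_switch {x y : V} (p : Γ.Walk x y) (A B : V → Prop)
    (hAB : ∀ v ∈ p.support, A v ∨ B v) (hx : A x) (hy : B y) :
    ∃ u ∈ p.support, A u ∧ (B u ∨ ∃ u', Γ.Adj u u' ∧ B u') := by
  induction p with
  | nil => exact ⟨_, by simp, hx, Or.inl hy⟩
  | @cons a b c h p ih =>
    by_cases hb : A b
    · obtain ⟨u, hu, h1, h2⟩ := ih (fun v hv => hAB v (by simp [hv])) hb hy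
      exact ⟨u, by simp [hu], h1, h2⟩
    · have : B b := (hAB b (by simp)).resolve_left hb
      exact ⟨a, by simp, hx, Or.inr ⟨b, h, this⟩⟩

end Graph



section Graph

variable {V : Type u} {Γ : SimpleGraph V}

lemma thin_center (hc : Γ.Connected) {δ : ℕ} (h : ThinTriangles Γ δ) (x z w : V)
    (p : Γ.Walk x z) (hp : p.length = Γ.dist x z) :
    ∃ u ∈ p.support, 2 * Γ.dist w u + Γ.dist x z ≤ Γ.dist w x + Γ.dist w z + 4 * δ + 2 := by
  obtain ⟨q, hq⟩ := hc.exists_walk_length_eq_dist z w
  obtain ⟨r, hr⟩ := hc.exists_walk_length_eq_dist x w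
  obtain ⟨u, hu, ⟨a, ha, hua⟩, hB⟩ := exists_switch p
    (fun v => ∃ a ∈ r.support, Γ.dist v a ≤ δ) (fun v => ∃ b ∈ q.support, Γ.dist v b ≤ δ)
    (fun v hv => by
      obtain ⟨t, ht, htd⟩ := h x z w p q r hp hq hr v hv
      rcases ht with ht | ht
      · exact Or.inr ⟨t, ht, htd⟩
      · exact Or.inl ⟨t, ht, htd⟩)
    ⟨x, by simp, by simp⟩ ⟨z, by simp, by simp⟩
  have hB' : ∃ b ∈ q.support, Γ.dist u b ≤ δ + 1 := by
    rcases hB with ⟨b, hb, hd⟩ | ⟨u', hadj, b, hb, hd⟩
    · exact ⟨b, hb, by omega⟩
    · refine ⟨b, hb, ?_⟩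
      have h1 := hc.dist_triangle (u := u) (v := u') (w := b)
      have h2 : Γ.dist u u' = 1 := dist_eq_one_iff_adj.2 hadj
      omega
  obtain ⟨b, hb, hub⟩ := hB'
  refine ⟨u, hu, ?_⟩
  have e1 := dist_add_of_mem_support hc p hp hu
  have e2 := dist_add_of_mem_support hc r hr ha
  have e3 := dist_add_of_mem_support hc q hq hb
  have t1 := hc.dist_triangle (u := w) (v := a) (w := u)
  have t2 := hc.dist_triangle (u := x) (v := a) (w := u)
  have t3 := hc.dist_triangle (u := w) (v := b) (w := u)
  have t4 := hc.dist_triangle (u := z) (v := b) (w := u)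
  have c1 := Γ.dist_comm (u := a) (v := u)
  have c2 := Γ.dist_comm (u := b) (v := u)
  have c3 := Γ.dist_comm (u := a) (v := w)
  have c4 := Γ.dist_comm (u := b) (v := w)
  have c5 := Γ.dist_comm (u := x) (v := w)
  have c6 := Γ.dist_comm (u := z) (v := w)
  have c7 := Γ.dist_comm (u := z) (v := u)
  omega

lemma fourPoint_of_thin (hc : Γ.Connected) {δ : ℕ} (h : ThinTriangles Γ δ) :
    FourPoint Γ (6 * δ + 2) := by
  intro x z y w
  obtain ⟨p, hp⟩ := hc.exists_walk_length_eq_dist x z
  obtain ⟨q, hq⟩ := hc.exists_walk_length_eq_dist z y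
  obtain ⟨r, hr⟩ := hc.exists_walk_length_eq_dist x y
  obtain ⟨u, hu, hu2⟩ := thin_center hc h x z w p hp
  obtain ⟨t, ht, htd⟩ := h x z y p q r hp hq hr u hu
  have t1 := hc.dist_triangle (u := w) (v := u) (w := t)
  rcases ht with ht | ht
  · have e := dist_add_of_mem_support hc q hq ht
    have t2 := hc.dist_triangle (u := w) (v := t) (w := z)
    have t3 := hc.dist_triangle (u := w) (v := t) (w := y)
    have c1 := Γ.dist_comm (u := t) (v := z)
    have c2 := Γ.dist_comm (u := w) (v := y)
    have c3 := Γ.dist_comm (u := w) (v := x)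
    have c4 := Γ.dist_comm (u := w) (v := z)
    have c5 := Γ.dist_comm (u := y) (v := z)
    have := le_max_right (Γ.dist x y + Γ.dist z w) (Γ.dist x w + Γ.dist z y)
    omega
  · have e := dist_add_of_mem_support hc r hr ht
    have t2 := hc.dist_triangle (u := w) (v := t) (w := x)
    have t3 := hc.dist_triangle (u := w) (v := t) (w := y)
    have c1 := Γ.dist_comm (u := t) (v := x)
    have c2 := Γ.dist_comm (u := w) (v := y)
    have c3 := Γ.dist_comm (u := w) (v := x)
    have c4 := Γ.dist_comm (u := w) (v := z)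
    have := le_max_left (Γ.dist x y + Γ.dist z w) (Γ.dist x w + Γ.dist z y)
    omega

lemma exists_mem_support_dist (hc : Γ.Connected) {x z : V} (r : Γ.Walk x z)
    (hr : r.length = Γ.dist x z) (t : ℕ) (ht : t ≤ Γ.dist x z) :
    ∃ q ∈ r.support, Γ.dist x q = t ∧ Γ.dist q z = Γ.dist x z - t := by
  have hm : r.getVert t ∈ r.support := r.getVert_mem_support t
  have h0 := dist_add_of_mem_support hc r hr hm
  have h1 : Γ.dist x (r.getVert t) ≤ t := by
    have := Γ.dist_le (r.take t)
    have h2 : (r.take t).length = t := by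
      simp [Walk.take_length]; omega
    omega
  have h3 : Γ.dist (r.getVert t) z ≤ Γ.dist x z - t := by
    have := Γ.dist_le (r.drop t)
    have h2 : (r.drop t).length = r.length - t := by
      simp [Walk.drop_length]
    omega
  exact ⟨r.getVert t, hm, by omega, by omega⟩

lemma near_of_small_product (hc : Γ.Connected) {c : ℕ} (h : FourPoint Γ c) {x z p : V}
    (r : Γ.Walk x z) (hr : r.length = Γ.dist x z)
    (hp : Γ.dist x p + Γ.dist p z ≤ Γ.dist x z + c) :
    ∃ q ∈ r.support, Γ.dist p q ≤ 2 * c := by
  by_cases hle : Γ.dist x p ≤ Γ.dist x z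
  · obtain ⟨q, hq, h1, h2⟩ := exists_mem_support_dist hc r hr _ hle
    refine ⟨q, hq, ?_⟩
    have h4 := h p q x z
    have c1 := Γ.dist_comm (u := p) (v := x)
    have c2 := Γ.dist_comm (u := q) (v := x)
    rcases max_cases (Γ.dist p x + Γ.dist q z) (Γ.dist p z + Γ.dist q x) with ⟨hm, _⟩ | ⟨hm, _⟩ <;>
    omega
  · exact ⟨z, by simp, by omega⟩

lemma thin_of_fourPoint (hc : Γ.Connected) {c : ℕ} (h : FourPoint Γ c) :
    ThinTriangles Γ (2 * c) := by
  intro x y z p q r hp hq hr v hv
  have e := dist_add_of_mem_support hc p hp hv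
  have h4 := h x y z v
  rcases max_cases (Γ.dist x z + Γ.dist y v) (Γ.dist x v + Γ.dist y z) with ⟨hm, _⟩ | ⟨hm, _⟩
  · obtain ⟨t, ht, htd⟩ := near_of_small_product hc h (p := v) r hr (by
      have c1 := Γ.dist_comm (u := y) (v := v)
      have c2 := Γ.dist_comm (u := z) (v := v)
      omega)
    exact ⟨t, Or.inr ht, htd⟩
  · obtain ⟨t, ht, htd⟩ := near_of_small_product hc h (p := v) q hq (by
      have c1 := Γ.dist_comm (u := y) (v := v)
      have c2 := Γ.dist_comm (u := z) (v := v)
      omega)
    exact ⟨t, Or.inl ht, htd⟩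

end Graph



section Cayley

variable {G : Type u} [Group G]

def leftHom (S : Set G) (g : G) : mulCayley S →g mulCayley S where
  toFun := fun x => g * x
  map_rel' := fun h => mulCayley_adj_mul_iff_right.2 h

lemma reachable_mul_left {S : Set G} (g : G) {x y : G} (h : (mulCayley S).Reachable x y) :
    (mulCayley S).Reachable (g * x) (g * y) :=
  h.map (leftHom S g)

lemma cayley_connected {S : Set G} (hS : Subgroup.closure S = ⊤) : (mulCayley S).Connected := by
  let K : Subgroup G :=
    { carrier := {g | (mulCayley S).Reachable 1 g}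
      one_mem' := Reachable.refl _
      mul_mem' := by
        intro a b ha hb
        have := reachable_mul_left a hb
        rw [mul_one] at this
        exact ha.trans this
      inv_mem' := by
        intro a ha
        have := reachable_mul_left a⁻¹ ha
        rw [mul_one, inv_mul_cancel] at this
        exact this.symm }
  have hK : K = ⊤ := by
    rw [eq_top_iff, ← hS, Subgroup.closure_le]
    intro s hs
    show (mulCayley S).Reachable 1 s
    by_cases h1 : (1 : G) = s
    · rw [← h1]
    · exact (Adj.reachable ((mulCayley_adj S 1 s).2 ⟨h1, Or.inl (by simpa using hs)⟩))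
  have h1 : ∀ g, (mulCayley S).Reachable 1 g := fun g => by
    have : g ∈ K := by rw [hK]; trivial
    exact this
  have : Nonempty G := ⟨1⟩
  exact ⟨fun x y => (h1 x).symm.trans (h1 y)⟩

lemma dist_mul_left_le {S : Set G} (hS : Subgroup.closure S = ⊤) (g x y : G) :
    (mulCayley S).dist (g * x) (g * y) ≤ (mulCayley S).dist x y := by
  obtain ⟨p, hp⟩ := (cayley_connected hS).exists_walk_length_eq_dist x y
  have := (mulCayley S).dist_le (p.map (leftHom S g))
  rw [Walk.length_map] at this
  rw [← hp]
  exact this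

lemma dist_mul_left {S : Set G} (hS : Subgroup.closure S = ⊤) (g x y : G) :
    (mulCayley S).dist (g * x) (g * y) = (mulCayley S).dist x y := by
  apply le_antisymm (dist_mul_left_le hS g x y)
  have := dist_mul_left_le hS g⁻¹ (g * x) (g * y)
  simpa using this

lemma dist_eq_norm {S : Set G} (hS : Subgroup.closure S = ⊤) (x y : G) :
    (mulCayley S).dist x y = (mulCayley S).dist 1 (x⁻¹ * y) := by
  have := dist_mul_left hS x⁻¹ x y
  simpa using this.symm

lemma ball_finite {S : Set G} (hfin : S.Finite) (hS : Subgroup.closure S = ⊤) (R : ℕ) :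
    {g : G | (mulCayley S).dist 1 g ≤ R}.Finite := by
  have hc := cayley_connected hS
  induction R with
  | zero =>
    apply (Set.finite_singleton (1 : G)).subset
    intro g hg
    have : (mulCayley S).dist 1 g = 0 := by simpa using hg
    simpa using (hc.dist_eq_zero_iff.1 this).symm
  | succ R ih =>
    have hfin2 : (S ∪ S⁻¹).Finite := hfin.union hfin.inv
    apply ((ih.mul hfin2).union ih).subset
    intro g hg
    have hg' : (mulCayley S).dist 1 g ≤ R + 1 := hg
    by_cases hle : (mulCayley S).dist 1 g ≤ R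
    · exact Or.inr hle
    · left
      have hd : (mulCayley S).dist 1 g = R + 1 := by omega
      obtain ⟨m, hm1, hm2⟩ := exists_between hc 1 g R (by omega)
      have hadj : (mulCayley S).Adj m g := dist_eq_one_iff_adj.1 (by omega)
      rw [mulCayley_adj] at hadj
      refine Set.mem_mul.2 ⟨m, by show (mulCayley S).dist 1 m ≤ R; omega, m⁻¹ * g, ?_, by group⟩
      rcases hadj.2 with h | h
      · exact Or.inl h
      · right
        rw [Set.mem_inv]
        simpa using h


noncomputable def ballSet (S : Finset G) (hS : Subgroup.closure (S : Set G) = ⊤) (R : ℕ) :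
    Finset G :=
  (ball_finite S.finite_toSet hS R).toFinset

lemma mem_ballSet {S : Finset G} {hS : Subgroup.closure (S : Set G) = ⊤} {R : ℕ} {g : G} :
    g ∈ ballSet S hS R ↔ (mulCayley (S : Set G)).dist 1 g ≤ R := by
  simp [ballSet]

lemma subset_ballSet {S : Finset G} {hS : Subgroup.closure (S : Set G) = ⊤} {R : ℕ}
    (hR : 1 ≤ R) : S ⊆ ballSet S hS R := by
  intro s hs
  rw [mem_ballSet]
  by_cases h1 : (1 : G) = s
  · rw [← h1]; simp
  · have : (mulCayley (S : Set G)).Adj 1 s :=
      (mulCayley_adj _ 1 s).2 ⟨h1, Or.inl (by simpa using hs)⟩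
    rw [dist_eq_one_iff_adj.2 this]
    exact hR

lemma closure_ballSet {S : Finset G} {hS : Subgroup.closure (S : Set G) = ⊤} {R : ℕ}
    (hR : 1 ≤ R) : Subgroup.closure (ballSet S hS R : Set G) = ⊤ := by
  rw [eq_top_iff, ← hS]
  apply Subgroup.closure_mono
  exact_mod_cast subset_ballSet hR

lemma ballSet_adj {S : Finset G} {hS : Subgroup.closure (S : Set G) = ⊤} {R : ℕ} (x y : G) :
    (mulCayley (ballSet S hS R : Set G)).Adj x y ↔
      x ≠ y ∧ (mulCayley (S : Set G)).dist x y ≤ R := by
  rw [mulCayley_adj]
  simp only [Finset.mem_coe, mem_ballSet]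
  rw [← dist_eq_norm hS, ← dist_eq_norm hS, dist_comm (u := y) (v := x), or_self]

lemma dist_le_mul_length {S : Finset G} {hS : Subgroup.closure (S : Set G) = ⊤} {R : ℕ}
    {x y : G} (p : (mulCayley (ballSet S hS R : Set G)).Walk x y) :
    (mulCayley (S : Set G)).dist x y ≤ R * p.length := by
  induction p with
  | nil => simp
  | @cons a b c h p ih =>
    have h1 := ((ballSet_adj a b).1 h).2
    have h2 := (cayley_connected hS).dist_triangle (u := a) (v := b) (w := c)
    rw [Walk.length_cons, mul_add, mul_one]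
    omega

lemma dist_le_mul_dist {S : Finset G} {hS : Subgroup.closure (S : Set G) = ⊤} {R : ℕ}
    (hR : 1 ≤ R) (x y : G) :
    (mulCayley (S : Set G)).dist x y ≤ R * (mulCayley (ballSet S hS R : Set G)).dist x y := by
  obtain ⟨p, hp⟩ := (cayley_connected (closure_ballSet (hS := hS) hR)).exists_walk_length_eq_dist x y
  rw [← hp]
  exact dist_le_mul_length p

lemma mul_dist_le {S : Finset G} {hS : Subgroup.closure (S : Set G) = ⊤} {R : ℕ}
    (hR : 1 ≤ R) (n : ℕ) : ∀ x y : G, (mulCayley (S : Set G)).dist x y = n →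
    R * (mulCayley (ballSet S hS R : Set G)).dist x y + 1 ≤ n + R := by
  have hc := cayley_connected hS
  have hc' := cayley_connected (closure_ballSet (hS := hS) hR)
  induction n using Nat.strong_induction_on with
  | _ n ih =>
    intro x y hxy
    by_cases h0 : x = y
    · subst h0
      simp
      omega
    · by_cases hle : n ≤ R
      · have : (mulCayley (ballSet S hS R : Set G)).Adj x y :=
          (ballSet_adj x y).2 ⟨h0, by omega⟩
        rw [dist_eq_one_iff_adj.2 this]
        have : 0 < n := by
          rw [← hxy]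
          exact hc.pos_dist_of_ne h0
        omega
      · obtain ⟨m, hm1, hm2⟩ := exists_between hc x y R (by omega)
        have hxm : x ≠ m := by
          intro h
          rw [← h] at hm1
          simp at hm1
          omega
        have hadj : (mulCayley (ballSet S hS R : Set G)).Adj x m :=
          (ballSet_adj x m).2 ⟨hxm, by omega⟩
        have h1 := dist_eq_one_iff_adj.2 hadj
        have h2 := ih (n - R) (by omega) m y (by omega)
        have h3 := hc'.dist_triangle (u := x) (v := m) (w := y)
        have h4 : R * (mulCayley (ballSet S hS R : Set G)).dist x y ≤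
            R * (1 + (mulCayley (ballSet S hS R : Set G)).dist m y) := by
          apply Nat.mul_le_mul_left
          omega
        rw [mul_add, mul_one] at h4
        omega

lemma fourPoint_ballSet {S : Finset G} {hS : Subgroup.closure (S : Set G) = ⊤} {R c : ℕ}
    (hR : 1 ≤ R) (hcR : c < R + 2) (h : FourPoint (mulCayley (S : Set G)) c) :
    FourPoint (mulCayley (ballSet S hS R : Set G)) 2 := by
  intro x y z w
  have a1 := mul_dist_le (hS := hS) hR _ x y rfl
  have a2 := mul_dist_le (hS := hS) hR _ z w rfl
  have b1 := dist_le_mul_dist (hS := hS) hR x z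
  have b2 := dist_le_mul_dist (hS := hS) hR y w
  have b3 := dist_le_mul_dist (hS := hS) hR x w
  have b4 := dist_le_mul_dist (hS := hS) hR y z
  have h4 := h x y z w
  generalize (mulCayley (ballSet S hS R : Set G)).dist x y = a' at *
  generalize (mulCayley (ballSet S hS R : Set G)).dist z w = b' at *
  generalize (mulCayley (ballSet S hS R : Set G)).dist x z = c' at *
  generalize (mulCayley (ballSet S hS R : Set G)).dist y w = d' at *
  generalize (mulCayley (ballSet S hS R : Set G)).dist x w = e' at *
  generalize (mulCayley (ballSet S hS R : Set G)).dist y z = f' at *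
  rcases max_cases ((mulCayley (S : Set G)).dist x z + (mulCayley (S : Set G)).dist y w)
    ((mulCayley (S : Set G)).dist x w + (mulCayley (S : Set G)).dist y z) with ⟨hm, _⟩ | ⟨hm, _⟩
  · have : R * (a' + b') < R * (c' + d' + 3) := by
      simp only [mul_add]
      omega
    have := Nat.lt_of_mul_lt_mul_left this
    have := le_max_left (c' + d') (e' + f')
    omega
  · have : R * (a' + b') < R * (e' + f' + 3) := by
      simp only [mul_add]
      omega
    have := Nat.lt_of_mul_lt_mul_left this
    have := le_max_right (c' + d') (e' + f')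
    omega

end Cayley

end Vale.Agent.P186
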