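import Mathlib

namespace Vale.Agent.P186

open SimpleGraph

universe u

/-- All geodesic triangles of the graph are `δ`-thin: every vertex of a geodesic side is within
distance `δ` of a vertex of one of the two other geodesic sides. -/
def ThinTriangles {V : Type u} (Γ : SimpleGraph V) (δ : ℕ) : Prop :=
  ∀ (x y z : V) (p : Γ.Walk x y) (q : Γ.Walk y z) (r : Γ.Walk x z),
    p.length = Γ.dist x y → q.length = Γ.dist y z → r.length = Γ.dist x z →
    ∀ v ∈ p.support, ∃ w, (w ∈ q.support ∨ w ∈ r.support) ∧ Γ.dist v w ≤ δ

/-- Gromov's four point inequality for the graph metric with additive error `c`. -/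
def FourPoint {V : Type u} (Γ : SimpleGraph V) (c : ℕ) : Prop :=
  ∀ x y z w : V, Γ.dist x y + Γ.dist z w ≤
    max (Γ.dist x z + Γ.dist y w) (Γ.dist x w + Γ.dist y z) + c

/-- A group is word-hyperbolic if it has a finite generating set whose Cayley graph has
uniformly thin geodesic triangles. -/
def WordHyperbolic (G : Type u) [Group G] : Prop :=
  ∃ S : Finset G, Subgroup.closure (S : Set G) = ⊤ ∧
    ∃ δ : ℕ, ThinTriangles (mulCayley (S : Set G)) δ

end Vale.Agent.P186
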